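import Mathlib

/-!
# P201: maximum principles for zero divisors
-/

namespace Vale.Agent.P201

open MonoidAlgebra

universe u v w

/-- a finite set which is stable under a map without periodic points is empty -/
theorem no_stable {X : Type*} (S : Finset X) (m : X → X) (hS : ∀ x ∈ S, m x ∈ S)
    (hm : ∀ (x : X) (n : ℕ), 0 < n → m^[n] x ≠ x) (hi : Function.Injective m) : S = ∅ := by
  by_contra hne
  obtain ⟨x, hx⟩ := Finset.nonempty_iff_ne_empty.mpr hne
  have h1 : ∀ n : ℕ, m^[n] x ∈ S := by
    intro n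
    induction n with
    | zero => exact hx
    | succ n ih => rw [Function.iterate_succ_apply']; exact hS _ ih
  have h2 : Function.Injective fun n : ℕ => m^[n] x := by
    intro a b hab
    simp only at hab
    by_contra hne
    rcases Nat.lt_or_gt_of_ne hne with h | h
    · obtain ⟨c, rfl⟩ := Nat.exists_eq_add_of_lt h
      have : m^[a] x = m^[a] (m^[c + 1] x) := by
        rw [← Function.iterate_add_apply]; rw [hab]; congr 1
      exact hm x (c + 1) (Nat.succ_pos c) ((hi.iterate a this).symm)
    · obtain ⟨c, rfl⟩ := Nat.exists_eq_add_of_lt h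
      have : m^[b] x = m^[b] (m^[c + 1] x) := by
        rw [← Function.iterate_add_apply]; rw [← hab]; congr 1
      exact hm x (c + 1) (Nat.succ_pos c) ((hi.iterate b this).symm)
  have h3 : (Set.range fun n : ℕ => m^[n] x) ⊆ (S : Set X) := by
    rintro _ ⟨n, rfl⟩; exact h1 n
  exact (Set.infinite_range_of_injective h2) (S.finite_toSet.subset h3)

/-- non-archimedean maximum principle -/
theorem na_max {K : Type u} [Field K] {Γ : Type v} [LinearOrderedCommGroupWithZero Γ]
    (v : Valuation K Γ) {X : Type*} {ι : Type*} (F : Finset ι) (a : ι → K) (a₀ : K)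
    (m : ι → X → X) (β : X →₀ K) (ha₀ : a₀ ≠ 0)
    (heq : ∀ x, a₀ * β x + ∑ i ∈ F, a i * β (m i x) = 0)
    (h : ι) (hlt : ∀ i ∈ F, i ≠ h → v (a i) < v a₀) (hle : ∀ i ∈ F, v (a i) ≤ v a₀)
    (hm : ∀ (x : X) (n : ℕ), 0 < n → (m h)^[n] x ≠ x) (hi : Function.Injective (m h)) :
    β = 0 := by
  classical
  by_contra hβ
  have hne : β.support.Nonempty := Finsupp.support_nonempty_iff.mpr hβ
  obtain ⟨x₀, hx₀, hmax⟩ := Finset.exists_max_image β.support (fun x => v (β x)) hne
  have hM : ∀ x, v (β x) ≤ v (β x₀) := by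
    intro x
    by_cases hx : x ∈ β.support
    · exact hmax x hx
    · rw [Finsupp.notMem_support_iff.mp hx, map_zero]; exact zero_le
  have hM0 : 0 < v (β x₀) := by
    rw [zero_lt_iff, Valuation.ne_zero_iff]
    exact Finsupp.mem_support_iff.mp hx₀
  have ha0 : 0 < v a₀ := by rw [zero_lt_iff, Valuation.ne_zero_iff]; exact ha₀
  set S := β.support.filter (fun x => v (β x) = v (β x₀)) with hS
  have hstab : ∀ x ∈ S, m h x ∈ S := by
    intro x hx
    rw [hS, Finset.mem_filter] at hx
    have h1 := heq x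
    -- some term has valuation at least that of the first
    have h2 : ∃ i ∈ F, v (a₀ * β x) ≤ v (a i * β (m i x)) := by
      by_contra hcon
      push Not at hcon
      have h3 : v (∑ i ∈ F, a i * β (m i x)) < v (a₀ * β x) := by
        apply Valuation.map_sum_lt
        · rw [map_mul, hx.2]; exact (mul_pos ha0 hM0).ne'
        · exact hcon
      have h4 : a₀ * β x = -(∑ i ∈ F, a i * β (m i x)) := eq_neg_of_add_eq_zero_left h1
      rw [h4, Valuation.map_neg] at h3
      exact lt_irrefl _ h3
    obtain ⟨i, hi, hle'⟩ := h2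
    rw [map_mul, map_mul, hx.2] at hle'
    have h5 : v (β (m i x)) ≤ v (β x₀) := hM _
    have h6 : v (a i) = v a₀ := by
      refine le_antisymm (hle i hi) ?_
      by_contra hc
      rw [not_le] at hc
      have : v (a i) * v (β (m i x)) < v a₀ * v (β x₀) := by
        calc v (a i) * v (β (m i x)) ≤ v (a i) * v (β x₀) := mul_le_mul_right h5 _
          _ < v a₀ * v (β x₀) := mul_lt_mul_of_pos_right hc hM0
      exact absurd hle' (not_le.mpr this)
    have h7 : i = h := by
      by_contra hne
      exact absurd h6 (hlt i hi hne).ne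
    subst h7
    have h8 : v (β (m i x)) = v (β x₀) := by
      refine le_antisymm h5 ?_
      rw [h6] at hle'
      exact le_of_mul_le_mul_left hle' ha0
    rw [hS, Finset.mem_filter]
    refine ⟨?_, h8⟩
    rw [Finsupp.mem_support_iff]
    intro h0
    rw [h0, map_zero] at h8
    exact hM0.ne h8
  have := no_stable S (m h) hstab hm hi
  have hx : x₀ ∈ S := by rw [hS, Finset.mem_filter]; exact ⟨hx₀, rfl⟩
  rw [this] at hx
  exact absurd hx (Finset.notMem_empty _)

/-- archimedean maximum principle -/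
theorem ar_max {K : Type u} [Field K] (v : AbsoluteValue K ℝ) {X : Type*} {ι : Type*}
    (F : Finset ι) (a : ι → K) (a₀ : K)
    (m : ι → X → X) (β : X →₀ K) (ha₀ : a₀ ≠ 0)
    (heq : ∀ x, a₀ * β x + ∑ i ∈ F, a i * β (m i x) = 0)
    (hdom : ∑ i ∈ F, v (a i) ≤ v a₀) (h : ι) (hh : h ∈ F) (hah : a h ≠ 0)
    (hm : ∀ (x : X) (n : ℕ), 0 < n → (m h)^[n] x ≠ x) (hi : Function.Injective (m h)) :
    β = 0 := by
  classical
  by_contra hβ
  have hne : β.support.Nonempty := Finsupp.support_nonempty_iff.mpr hβ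
  obtain ⟨x₀, hx₀, hmax⟩ := Finset.exists_max_image β.support (fun x => v (β x)) hne
  have hM : ∀ x, v (β x) ≤ v (β x₀) := by
    intro x
    by_cases hx : x ∈ β.support
    · exact hmax x hx
    · rw [Finsupp.notMem_support_iff.mp hx, map_zero]; exact v.nonneg _
  have hM0 : 0 < v (β x₀) := v.pos (Finsupp.mem_support_iff.mp hx₀)
  have ha0 : 0 < v a₀ := v.pos ha₀
  set S := β.support.filter (fun x => v (β x) = v (β x₀)) with hS
  have hstab : ∀ x ∈ S, m h x ∈ S := by
    intro x hx
    rw [hS, Finset.mem_filter] at hx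
    have h1 : a₀ * β x = -(∑ i ∈ F, a i * β (m i x)) := eq_neg_of_add_eq_zero_left (heq x)
    have h2 : v a₀ * v (β x₀) ≤ ∑ i ∈ F, v (a i) * v (β (m i x)) := by
      rw [← hx.2, ← map_mul, h1, v.map_neg]
      refine (v.sum_le _ _).trans (le_of_eq ?_)
      exact Finset.sum_congr rfl fun i _ => map_mul _ _ _
    have h3 : ∑ i ∈ F, v (a i) * v (β (m i x)) ≤
        ∑ i ∈ F, v (a i) * v (β x₀) - v (a h) * (v (β x₀) - v (β (m h x))) := by
      rw [← Finset.add_sum_erase _ _ hh, ← Finset.add_sum_erase F (fun i => v (a i) * v (β x₀)) hh]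
      have : ∑ i ∈ F.erase h, v (a i) * v (β (m i x)) ≤ ∑ i ∈ F.erase h, v (a i) * v (β x₀) :=
        Finset.sum_le_sum fun i _ => mul_le_mul_of_nonneg_left (hM _) (v.nonneg _)
      linarith
    rw [← Finset.sum_mul] at h3
    have h4 : v (a h) * (v (β x₀) - v (β (m h x))) ≤ 0 := by
      have := mul_le_mul_of_nonneg_right hdom hM0.le
      linarith
    have h5 : v (β x₀) - v (β (m h x)) ≤ 0 := by
      by_contra hc
      rw [not_le] at hc
      exact absurd h4 (not_le.mpr (mul_pos (v.pos hah) hc))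
    have h8 : v (β (m h x)) = v (β x₀) := le_antisymm (hM _) (by linarith)
    rw [hS, Finset.mem_filter]
    refine ⟨?_, h8⟩
    rw [Finsupp.mem_support_iff]
    intro h0
    rw [h0, map_zero] at h8
    exact hM0.ne h8
  have := no_stable S (m h) hstab hm hi
  have hx : x₀ ∈ S := by rw [hS, Finset.mem_filter]; exact ⟨hx₀, rfl⟩
  rw [this] at hx
  exact absurd hx (Finset.notMem_empty _)

end Vale.Agent.P201
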