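import Mathlib
import Vale.Agent.P201.Basic

/-!
# P201: constraints on zero divisors in group algebras of torsion-free groups
-/

namespace Vale.Agent.P201

open MonoidAlgebra

universe u v w

/-- torsion-free groups: the identity is the only element of finite order -/
def TorsionFree (G : Type u) [Group G] : Prop :=
  ∀ g : G, g ≠ 1 → ∀ n : ℕ, 0 < n → g ^ n ≠ 1

variable {K : Type u} [Field K] {G : Type v} [Group G]

theorem left_eq {α β : MonoidAlgebra K G} (h : α * β = 0) {g₀ : G} (hg : g₀ ∈ α.coeff.support)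
    [DecidableEq G] (x : G) :
    α.coeff g₀ * β.coeff x + ∑ g ∈ α.coeff.support.erase g₀,
      α.coeff g * β.coeff ((g⁻¹ * g₀) * x) = 0 := by
  have h1 := MonoidAlgebra.coeff_mul_apply_left α β (g₀ * x)
  rw [h] at h1
  have h2 : (0 : K) = ∑ g ∈ α.coeff.support, α.coeff g * β.coeff (g⁻¹ * (g₀ * x)) := by
    simpa [Finsupp.sum] using h1
  rw [← Finset.add_sum_erase _ _ hg] at h2
  simp only [inv_mul_cancel_left] at h2
  rw [h2]
  simp only [mul_assoc]

theorem right_eq {α β : MonoidAlgebra K G} (h : β * α = 0) {g₀ : G} (hg : g₀ ∈ α.coeff.support)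
    [DecidableEq G] (x : G) :
    α.coeff g₀ * β.coeff x + ∑ g ∈ α.coeff.support.erase g₀,
      α.coeff g * β.coeff (x * (g₀ * g⁻¹)) = 0 := by
  have h1 := MonoidAlgebra.coeff_mul_apply_right β α (x * g₀)
  rw [h] at h1
  have h2 : (0 : K) = ∑ g ∈ α.coeff.support, β.coeff (x * g₀ * g⁻¹) * α.coeff g := by
    simpa [Finsupp.sum] using h1
  rw [← Finset.add_sum_erase _ _ hg] at h2
  simp only [mul_inv_cancel_right] at h2
  rw [h2, mul_comm (α.coeff g₀)]
  congr 1
  refine Finset.sum_congr rfl fun g _ => ?_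
  rw [mul_comm (α.coeff g), mul_assoc]

theorem left_free (hG : TorsionFree G) {u : G} (hu : u ≠ 1) (x : G) (n : ℕ) (hn : 0 < n) :
    (fun x => u * x)^[n] x ≠ x := by
  rw [mul_left_iterate]
  intro h
  have : u ^ n * x = 1 * x := by simpa using h
  exact hG u hu n hn (mul_right_cancel this)

theorem right_free (hG : TorsionFree G) {u : G} (hu : u ≠ 1) (x : G) (n : ℕ) (hn : 0 < n) :
    (fun x => x * u)^[n] x ≠ x := by
  rw [mul_right_iterate]
  intro h
  have : x * u ^ n = x * 1 := by simpa using h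
  exact hG u hu n hn (mul_left_cancel this)

/-- non-archimedean part -/
theorem na (hG : TorsionFree G) {Γ : Type w} [LinearOrderedCommGroupWithZero Γ]
    (v : Valuation K Γ) {α β : MonoidAlgebra K G} (hα : α ≠ 0) (hβ : β ≠ 0)
    (h : α * β = 0 ∨ β * α = 0) (g₀ : G) (hmax : ∀ g, v (α.coeff g) ≤ v (α.coeff g₀)) :
    ∃ g₁ g₂ : G, g₁ ≠ g₀ ∧ g₂ ≠ g₀ ∧ g₁ ≠ g₂ ∧ v (α.coeff g₁) = v (α.coeff g₀) ∧
      v (α.coeff g₂) = v (α.coeff g₀) := by
  classical
  by_contra hcon
  push Not at hcon
  have hg₀ : α.coeff g₀ ≠ 0 := by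
    intro h0
    apply hα
    apply MonoidAlgebra.coeff_injective
    ext g
    have := hmax g
    rw [h0, map_zero, le_zero_iff, Valuation.zero_iff] at this
    simpa using this
  have hmem : g₀ ∈ α.coeff.support := Finsupp.mem_support_iff.mpr hg₀
  -- it suffices to find the second element
  have key : ∀ k : G, k ≠ g₀ → (∀ i, i ≠ g₀ → i ≠ k → v (α.coeff i) < v (α.coeff g₀)) → False := by
    intro k hk hlt
    apply hβ
    apply MonoidAlgebra.coeff_injective
    rcases h with h | h
    · refine na_max v (α.coeff.support.erase g₀) (fun g => α.coeff g) (α.coeff g₀)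
        (fun g x => (g⁻¹ * g₀) * x) β.coeff hg₀ (fun x => left_eq h hmem x) k ?_ ?_ ?_ ?_
      · intro i hi hik
        exact hlt i (Finset.ne_of_mem_erase hi) hik
      · intro i _
        exact hmax i
      · exact left_free hG (fun h' => hk (inv_mul_eq_one.mp h'))
      · exact mul_right_injective _
    · refine na_max v (α.coeff.support.erase g₀) (fun g => α.coeff g) (α.coeff g₀)
        (fun g x => x * (g₀ * g⁻¹)) β.coeff hg₀ (fun x => right_eq h hmem x) k ?_ ?_ ?_ ?_
      · intro i hi hik
        exact hlt i (Finset.ne_of_mem_erase hi) hik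
      · intro i _
        exact hmax i
      · exact right_free hG (fun h' => hk (mul_inv_eq_one.mp h').symm)
      · exact mul_left_injective _
  by_cases hex : ∃ k, k ≠ g₀ ∧ v (α.coeff k) = v (α.coeff g₀)
  · obtain ⟨k, hk, hk'⟩ := hex
    refine key k hk fun i hi hik => lt_of_le_of_ne (hmax i) fun he => ?_
    exact hcon k i hk hi (Ne.symm hik) hk' he
  · push Not at hex
    by_cases hone : ∃ k : G, k ≠ g₀
    · obtain ⟨k, hk⟩ := hone
      exact key k hk fun i hi _ => lt_of_le_of_ne (hmax i) (hex i hi)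
    · push Not at hone
      apply hβ
      apply MonoidAlgebra.coeff_injective
      ext x
      have hE : α.coeff.support.erase g₀ = ∅ := by
        ext i
        simp [hone i]
      rcases h with h | h
      · have := left_eq h hmem x
        rw [hE] at this
        simpa [hg₀] using this
      · have := right_eq h hmem x
        rw [hE] at this
        simpa [hg₀] using this

/-- archimedean part -/
theorem ar (hG : TorsionFree G) (v : AbsoluteValue K ℝ) {α β : MonoidAlgebra K G}
    (hβ : β ≠ 0) (h : α * β = 0 ∨ β * α = 0) (g₀ : G) (hg₀ : α.coeff g₀ ≠ 0) :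
    ∃ F : Finset G, g₀ ∉ F ∧ v (α.coeff g₀) < ∑ g ∈ F, v (α.coeff g) := by
  classical
  have hmem : g₀ ∈ α.coeff.support := Finsupp.mem_support_iff.mpr hg₀
  refine ⟨α.coeff.support.erase g₀, Finset.notMem_erase _ _, ?_⟩
  by_contra hcon
  rw [not_lt] at hcon
  apply hβ
  apply MonoidAlgebra.coeff_injective
  by_cases hE : (α.coeff.support.erase g₀).Nonempty
  · obtain ⟨k, hk⟩ := hE
    have hk1 : k ≠ g₀ := Finset.ne_of_mem_erase hk
    have hk2 : α.coeff k ≠ 0 := Finsupp.mem_support_iff.mp (Finset.mem_of_mem_erase hk)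
    rcases h with h | h
    · exact ar_max v (α.coeff.support.erase g₀) (fun g => α.coeff g) (α.coeff g₀)
        (fun g x => (g⁻¹ * g₀) * x) β.coeff hg₀ (fun x => left_eq h hmem x) hcon k hk hk2
        (left_free hG (fun h' => hk1 (inv_mul_eq_one.mp h'))) (mul_right_injective _)
    · exact ar_max v (α.coeff.support.erase g₀) (fun g => α.coeff g) (α.coeff g₀)
        (fun g x => x * (g₀ * g⁻¹)) β.coeff hg₀ (fun x => right_eq h hmem x) hcon k hk hk2
        (right_free hG (fun h' => hk1 (mul_inv_eq_one.mp h').symm)) (mul_left_injective _)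
  · rw [Finset.not_nonempty_iff_eq_empty] at hE
    ext x
    rcases h with h | h
    · have := left_eq h hmem x
      rw [hE] at this
      simpa [hg₀] using this
    · have := right_eq h hmem x
      rw [hE] at this
      simpa [hg₀] using this

/-- a coefficient of maximal value exists, and if the support has at most three elements then
all of them have maximal value -/
theorem three (hG : TorsionFree G) {Γ : Type w} [LinearOrderedCommGroupWithZero Γ]
    (v : Valuation K Γ) {α β : MonoidAlgebra K G} (hα : α ≠ 0) (hβ : β ≠ 0)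
    (h : α * β = 0 ∨ β * α = 0) (h3 : α.coeff.support.card ≤ 3) :
    α.coeff.support.card = 3 ∧
      ∀ g ∈ α.coeff.support, ∀ k ∈ α.coeff.support, v (α.coeff g) = v (α.coeff k) := by
  classical
  have hne : α.coeff.support.Nonempty := by
    rw [Finsupp.support_nonempty_iff]
    intro h0
    exact hα (MonoidAlgebra.coeff_injective h0)
  obtain ⟨g₀, hg₀, hmax'⟩ := Finset.exists_max_image α.coeff.support
    (fun g => v (α.coeff g)) hne
  have hmax : ∀ g, v (α.coeff g) ≤ v (α.coeff g₀) := by
    intro g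
    by_cases hg : g ∈ α.coeff.support
    · exact hmax' g hg
    · rw [Finsupp.notMem_support_iff.mp hg, map_zero]; exact zero_le
  obtain ⟨g₁, g₂, h10, h20, h12, e1, e2⟩ := na hG v hα hβ h g₀ hmax
  have hv0 : v (α.coeff g₀) ≠ 0 := by
    rw [Valuation.ne_zero_iff]; exact Finsupp.mem_support_iff.mp hg₀
  have hm : ∀ g, v (α.coeff g) = v (α.coeff g₀) → g ∈ α.coeff.support := by
    intro g hg
    rw [Finsupp.mem_support_iff]
    intro h0
    rw [h0, map_zero] at hg
    exact hv0 hg.symm
  have hsub : ({g₀, g₁, g₂} : Finset G) ⊆ α.coeff.support := by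
    intro g hg
    simp only [Finset.mem_insert, Finset.mem_singleton] at hg
    rcases hg with rfl | rfl | rfl
    · exact hg₀
    · exact hm _ e1
    · exact hm _ e2
  have hcard : ({g₀, g₁, g₂} : Finset G).card = 3 := by
    rw [Finset.card_eq_three]
    exact ⟨g₀, g₁, g₂, h10.symm, h20.symm, h12, rfl⟩
  have heq : ({g₀, g₁, g₂} : Finset G) = α.coeff.support :=
    Finset.eq_of_subset_of_card_le hsub (by rw [hcard]; exact h3)
  have hall : ∀ g ∈ α.coeff.support, v (α.coeff g) = v (α.coeff g₀) := by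
    intro g hg
    rw [← heq] at hg
    simp only [Finset.mem_insert, Finset.mem_singleton] at hg
    rcases hg with rfl | rfl | rfl
    · rfl
    · exact e1
    · exact e2
  exact ⟨by rw [← heq, hcard], fun g hg k hk => (hall g hg).trans (hall k hk).symm⟩

theorem integral (hG : TorsionFree G) {α β : MonoidAlgebra K G} (hα : α ≠ 0) (hβ : β ≠ 0)
    (h : α * β = 0 ∨ β * α = 0) (h3 : α.coeff.support.card ≤ 3) :
    α.coeff.support.card = 3 ∧
      ∀ g ∈ α.coeff.support, ∀ k ∈ α.coeff.support, IsIntegral ℤ (α.coeff g / α.coeff k) := by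
  refine ⟨(three hG (⊤ : ValuationSubring K).valuation hα hβ h h3).1, ?_⟩
  intro g hg k hk
  by_contra hcon
  have hx : α.coeff g / α.coeff k ∉ (integralClosure ℤ K).toSubring := hcon
  obtain ⟨V, -, hV⟩ := Subring.exists_le_valuationSubring_of_isIntegrallyClosedIn hx
  have h1 := (three hG V.valuation hα hβ h h3).2 g hg k hk
  apply hV
  rw [← ValuationSubring.valuation_le_one_iff, map_div₀, h1, div_self]
  rw [Valuation.ne_zero_iff]
  exact Finsupp.mem_support_iff.mp hk

theorem rational (hG : TorsionFree G) {α β : MonoidAlgebra ℚ G} (hα : α ≠ 0) (hβ : β ≠ 0)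
    (h : α * β = 0 ∨ β * α = 0) (h3 : α.coeff.support.card ≤ 3) :
    ∃ c : ℚ, c ≠ 0 ∧ ∀ g ∈ α.coeff.support, α.coeff g = c ∨ α.coeff g = -c := by
  obtain ⟨hc, hi⟩ := integral hG hα hβ h h3
  obtain ⟨k, hk⟩ : α.coeff.support.Nonempty := by
    rw [← Finset.card_pos]; omega
  have hk0 : α.coeff k ≠ 0 := Finsupp.mem_support_iff.mp hk
  refine ⟨α.coeff k, hk0, ?_⟩
  intro g hg
  have hg0 : α.coeff g ≠ 0 := Finsupp.mem_support_iff.mp hg
  obtain ⟨m, hm⟩ := IsIntegrallyClosed.isIntegral_iff.mp (hi g hg k hk)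
  obtain ⟨n, hn⟩ := IsIntegrallyClosed.isIntegral_iff.mp (hi k hk g hg)
  simp only [eq_intCast] at hm hn
  have hmn : m * n = 1 := by
    have : ((m * n : ℤ) : ℚ) = 1 := by
      push_cast
      rw [hm, hn]
      field_simp
    exact_mod_cast this
  have hkg : α.coeff g = m * α.coeff k := by
    rw [hm]; field_simp
  rcases Int.eq_one_or_neg_one_of_mul_eq_one hmn with h1 | h1
  · left; rw [hkg, h1]; simp
  · right; rw [hkg, h1]; simp

end Vale.Agent.P201
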